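import Vale.Agent.P062.Table

namespace Vale.Agent.P062

theorem chk0 : checkRange T 1 166 = true := by decide +kernel

theorem chk1 : checkRange T 167 150 = true := by decide +kernel

theorem chk2 : checkRange T 317 147 = true := by decide +kernel

theorem chk3 : checkRange T 464 137 = true := by decide +kernel

end Vale.Agent.P062
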