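import Vale.Agent.P062.Table

namespace Vale.Agent.P062

theorem chk4 : checkRange T 601 135 = true := by decide +kernel

theorem chk5 : checkRange T 736 125 = true := by decide +kernel

theorem chk6 : checkRange T 861 120 = true := by decide +kernel

theorem chk7 : checkRange T 981 138 = true := by decide +kernel

end Vale.Agent.P062
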