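import Vale.Agent.P062.Table

namespace Vale.Agent.P062

theorem chk40 : checkRange T 5145 116 = true := by decide +kernel

theorem chk41 : checkRange T 5261 121 = true := by decide +kernel

theorem chk42 : checkRange T 5382 123 = true := by decide +kernel

theorem chk43 : checkRange T 5505 129 = true := by decide +kernel

end Vale.Agent.P062
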