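import Vale.Agent.P062.Table

namespace Vale.Agent.P062

theorem chk44 : checkRange T 5634 120 = true := by decide +kernel

theorem chk45 : checkRange T 5754 113 = true := by decide +kernel

theorem chk46 : checkRange T 5867 120 = true := by decide +kernel

theorem chk47 : checkRange T 5987 131 = true := by decide +kernel

end Vale.Agent.P062
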