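import Vale.Agent.P062.Table

namespace Vale.Agent.P062

theorem chk48 : checkRange T 6118 123 = true := by decide +kernel

theorem chk49 : checkRange T 6241 124 = true := by decide +kernel

theorem chk50 : checkRange T 6365 106 = true := by decide +kernel

theorem chk51 : checkRange T 6471 124 = true := by decide +kernel

end Vale.Agent.P062
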