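import Vale.Agent.P062.Table

namespace Vale.Agent.P062

theorem chk52 : checkRange T 6595 117 = true := by decide +kernel

theorem chk53 : checkRange T 6712 116 = true := by decide +kernel

theorem chk54 : checkRange T 6828 115 = true := by decide +kernel

theorem chk55 : checkRange T 6943 129 = true := by decide +kernel

end Vale.Agent.P062
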