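import Vale.Agent.P062.Table

namespace Vale.Agent.P062

theorem chk56 : checkRange T 7072 121 = true := by decide +kernel

theorem chk57 : checkRange T 7193 103 = true := by decide +kernel

theorem chk58 : checkRange T 7296 125 = true := by decide +kernel

theorem chk59 : checkRange T 7421 105 = true := by decide +kernel

end Vale.Agent.P062
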