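import Vale.Agent.P062.Table

namespace Vale.Agent.P062

theorem chk60 : checkRange T 7526 115 = true := by decide +kernel

theorem chk61 : checkRange T 7641 123 = true := by decide +kernel

theorem chk62 : checkRange T 7764 106 = true := by decide +kernel

theorem chk63 : checkRange T 7870 38 = true := by decide +kernel

end Vale.Agent.P062
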