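import Vale.Agent.P062.Table

namespace Vale.Agent.P062

theorem chk8 : checkRange T 1119 131 = true := by decide +kernel

theorem chk9 : checkRange T 1250 120 = true := by decide +kernel

theorem chk10 : checkRange T 1370 119 = true := by decide +kernel

theorem chk11 : checkRange T 1489 106 = true := by decide +kernel

end Vale.Agent.P062
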