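import Vale.Agent.P062.Table

namespace Vale.Agent.P062

theorem chk12 : checkRange T 1595 138 = true := by decide +kernel

theorem chk13 : checkRange T 1733 130 = true := by decide +kernel

theorem chk14 : checkRange T 1863 127 = true := by decide +kernel

theorem chk15 : checkRange T 1990 136 = true := by decide +kernel

end Vale.Agent.P062
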