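import Vale.Agent.P062.Table

namespace Vale.Agent.P062

theorem chk16 : checkRange T 2126 125 = true := by decide +kernel

theorem chk17 : checkRange T 2251 138 = true := by decide +kernel

theorem chk18 : checkRange T 2389 129 = true := by decide +kernel

theorem chk19 : checkRange T 2518 137 = true := by decide +kernel

end Vale.Agent.P062
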