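import Vale.Agent.P062.Table

namespace Vale.Agent.P062

theorem chk20 : checkRange T 2655 119 = true := by decide +kernel

theorem chk21 : checkRange T 2774 124 = true := by decide +kernel

theorem chk22 : checkRange T 2898 123 = true := by decide +kernel

theorem chk23 : checkRange T 3021 130 = true := by decide +kernel

end Vale.Agent.P062
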