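import Vale.Agent.P062.Table

namespace Vale.Agent.P062

theorem chk24 : checkRange T 3151 129 = true := by decide +kernel

theorem chk25 : checkRange T 3280 138 = true := by decide +kernel

theorem chk26 : checkRange T 3418 127 = true := by decide +kernel

theorem chk27 : checkRange T 3545 127 = true := by decide +kernel

end Vale.Agent.P062
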