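import Vale.Agent.P062.Table

namespace Vale.Agent.P062

theorem chk28 : checkRange T 3672 127 = true := by decide +kernel

theorem chk29 : checkRange T 3799 119 = true := by decide +kernel

theorem chk30 : checkRange T 3918 131 = true := by decide +kernel

theorem chk31 : checkRange T 4049 106 = true := by decide +kernel

end Vale.Agent.P062
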