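import Vale.Agent.P062.Table

namespace Vale.Agent.P062

theorem chk32 : checkRange T 4155 118 = true := by decide +kernel

theorem chk33 : checkRange T 4273 132 = true := by decide +kernel

theorem chk34 : checkRange T 4405 123 = true := by decide +kernel

theorem chk35 : checkRange T 4528 120 = true := by decide +kernel

end Vale.Agent.P062
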