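import Vale.Agent.P062.Table

namespace Vale.Agent.P062

theorem chk36 : checkRange T 4648 128 = true := by decide +kernel

theorem chk37 : checkRange T 4776 114 = true := by decide +kernel

theorem chk38 : checkRange T 4890 127 = true := by decide +kernel

theorem chk39 : checkRange T 5017 128 = true := by decide +kernel

end Vale.Agent.P062
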