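import Vale.Agent.P062.Check

namespace Vale.Agent.P062

def l (c s d j : ℕ) : Trie := Trie.leaf ⟨c, s, d, j⟩
def n (a b : Trie) : Trie := Trie.node a b
def z : Trie := Trie.leaf ⟨0, 0, 0, 0⟩

end Vale.Agent.P062
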