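import Mathlib

namespace Vale.Agent.P062

/-- The hexomino Snaky. -/
def snaky : Set (ℤ × ℤ) := {(0, 0), (1, 0), (2, 0), (3, 0), (3, 1), (4, 1)}

/-- The matrix with rows `(a, b)` and `(c, d)` is a signed permutation matrix. -/
def SignedPerm (a b c d : ℤ) : Prop :=
  ((a = 1 ∨ a = -1) ∧ b = 0 ∧ c = 0 ∧ (d = 1 ∨ d = -1)) ∨
  (a = 0 ∧ (b = 1 ∨ b = -1) ∧ (c = 1 ∨ c = -1) ∧ d = 0)

/-- `A = t + R(S)` for a translation `t` and a signed permutation matrix `R`. -/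
def IsCopy (A : Set (ℤ × ℤ)) : Prop :=
  ∃ (t : ℤ × ℤ) (a b c d : ℤ), SignedPerm a b c d ∧
    A = (fun p : ℤ × ℤ => (t.1 + (a * p.1 + b * p.2), t.2 + (c * p.1 + d * p.2))) '' snaky

/-- The cell Maker claims on turn `k = 0, 1, 2, …` when following the strategy `σ` (a function of
the list of Breaker's earlier claims) against Breaker's claims `β 0, β 1, …`. -/
def makerMove (σ : List (ℤ × ℤ) → ℤ × ℤ) (β : ℕ → ℤ × ℤ) (k : ℕ) : ℤ × ℤ :=
  σ ((List.range k).map β)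

end Vale.Agent.P062
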