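import Vale.Agent.P062.Sound
import Vale.Agent.P062.Chk0
import Vale.Agent.P062.Chk1
import Vale.Agent.P062.Chk2
import Vale.Agent.P062.Chk3
import Vale.Agent.P062.Chk4
import Vale.Agent.P062.Chk5
import Vale.Agent.P062.Chk6
import Vale.Agent.P062.Chk7
import Vale.Agent.P062.Chk8
import Vale.Agent.P062.Chk9
import Vale.Agent.P062.Chk10
import Vale.Agent.P062.Chk11
import Vale.Agent.P062.Chk12
import Vale.Agent.P062.Chk13
import Vale.Agent.P062.Chk14
import Vale.Agent.P062.Chk15

namespace Vale.Agent.P062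

lemma all_checked (i : ℕ) (h1 : 1 ≤ i) (h2 : i < 7908) : checkE T i (T.get i) = true := by
  rcases Nat.lt_or_ge i 167 with h | h1
  · exact checkRange_spec T _ _ chk0 i h1 h
  rcases Nat.lt_or_ge i 317 with h | h1
  · exact checkRange_spec T _ _ chk1 i h1 h
  rcases Nat.lt_or_ge i 464 with h | h1
  · exact checkRange_spec T _ _ chk2 i h1 h
  rcases Nat.lt_or_ge i 601 with h | h1
  · exact checkRange_spec T _ _ chk3 i h1 h
  rcases Nat.lt_or_ge i 736 with h | h1
  · exact checkRange_spec T _ _ chk4 i h1 h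
  rcases Nat.lt_or_ge i 861 with h | h1
  · exact checkRange_spec T _ _ chk5 i h1 h
  rcases Nat.lt_or_ge i 981 with h | h1
  · exact checkRange_spec T _ _ chk6 i h1 h
  rcases Nat.lt_or_ge i 1119 with h | h1
  · exact checkRange_spec T _ _ chk7 i h1 h
  rcases Nat.lt_or_ge i 1250 with h | h1
  · exact checkRange_spec T _ _ chk8 i h1 h
  rcases Nat.lt_or_ge i 1370 with h | h1
  · exact checkRange_spec T _ _ chk9 i h1 h
  rcases Nat.lt_or_ge i 1489 with h | h1
  · exact checkRange_spec T _ _ chk10 i h1 h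
  rcases Nat.lt_or_ge i 1595 with h | h1
  · exact checkRange_spec T _ _ chk11 i h1 h
  rcases Nat.lt_or_ge i 1733 with h | h1
  · exact checkRange_spec T _ _ chk12 i h1 h
  rcases Nat.lt_or_ge i 1863 with h | h1
  · exact checkRange_spec T _ _ chk13 i h1 h
  rcases Nat.lt_or_ge i 1990 with h | h1
  · exact checkRange_spec T _ _ chk14 i h1 h
  rcases Nat.lt_or_ge i 2126 with h | h1
  · exact checkRange_spec T _ _ chk15 i h1 h
  rcases Nat.lt_or_ge i 2251 with h | h1
  · exact checkRange_spec T _ _ chk16 i h1 h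
  rcases Nat.lt_or_ge i 2389 with h | h1
  · exact checkRange_spec T _ _ chk17 i h1 h
  rcases Nat.lt_or_ge i 2518 with h | h1
  · exact checkRange_spec T _ _ chk18 i h1 h
  rcases Nat.lt_or_ge i 2655 with h | h1
  · exact checkRange_spec T _ _ chk19 i h1 h
  rcases Nat.lt_or_ge i 2774 with h | h1
  · exact checkRange_spec T _ _ chk20 i h1 h
  rcases Nat.lt_or_ge i 2898 with h | h1
  · exact checkRange_spec T _ _ chk21 i h1 h
  rcases Nat.lt_or_ge i 3021 with h | h1
  · exact checkRange_spec T _ _ chk22 i h1 h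
  rcases Nat.lt_or_ge i 3151 with h | h1
  · exact checkRange_spec T _ _ chk23 i h1 h
  rcases Nat.lt_or_ge i 3280 with h | h1
  · exact checkRange_spec T _ _ chk24 i h1 h
  rcases Nat.lt_or_ge i 3418 with h | h1
  · exact checkRange_spec T _ _ chk25 i h1 h
  rcases Nat.lt_or_ge i 3545 with h | h1
  · exact checkRange_spec T _ _ chk26 i h1 h
  rcases Nat.lt_or_ge i 3672 with h | h1
  · exact checkRange_spec T _ _ chk27 i h1 h
  rcases Nat.lt_or_ge i 3799 with h | h1
  · exact checkRange_spec T _ _ chk28 i h1 h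
  rcases Nat.lt_or_ge i 3918 with h | h1
  · exact checkRange_spec T _ _ chk29 i h1 h
  rcases Nat.lt_or_ge i 4049 with h | h1
  · exact checkRange_spec T _ _ chk30 i h1 h
  rcases Nat.lt_or_ge i 4155 with h | h1
  · exact checkRange_spec T _ _ chk31 i h1 h
  rcases Nat.lt_or_ge i 4273 with h | h1
  · exact checkRange_spec T _ _ chk32 i h1 h
  rcases Nat.lt_or_ge i 4405 with h | h1
  · exact checkRange_spec T _ _ chk33 i h1 h
  rcases Nat.lt_or_ge i 4528 with h | h1
  · exact checkRange_spec T _ _ chk34 i h1 h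
  rcases Nat.lt_or_ge i 4648 with h | h1
  · exact checkRange_spec T _ _ chk35 i h1 h
  rcases Nat.lt_or_ge i 4776 with h | h1
  · exact checkRange_spec T _ _ chk36 i h1 h
  rcases Nat.lt_or_ge i 4890 with h | h1
  · exact checkRange_spec T _ _ chk37 i h1 h
  rcases Nat.lt_or_ge i 5017 with h | h1
  · exact checkRange_spec T _ _ chk38 i h1 h
  rcases Nat.lt_or_ge i 5145 with h | h1
  · exact checkRange_spec T _ _ chk39 i h1 h
  rcases Nat.lt_or_ge i 5261 with h | h1
  · exact checkRange_spec T _ _ chk40 i h1 h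
  rcases Nat.lt_or_ge i 5382 with h | h1
  · exact checkRange_spec T _ _ chk41 i h1 h
  rcases Nat.lt_or_ge i 5505 with h | h1
  · exact checkRange_spec T _ _ chk42 i h1 h
  rcases Nat.lt_or_ge i 5634 with h | h1
  · exact checkRange_spec T _ _ chk43 i h1 h
  rcases Nat.lt_or_ge i 5754 with h | h1
  · exact checkRange_spec T _ _ chk44 i h1 h
  rcases Nat.lt_or_ge i 5867 with h | h1
  · exact checkRange_spec T _ _ chk45 i h1 h
  rcases Nat.lt_or_ge i 5987 with h | h1
  · exact checkRange_spec T _ _ chk46 i h1 h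
  rcases Nat.lt_or_ge i 6118 with h | h1
  · exact checkRange_spec T _ _ chk47 i h1 h
  rcases Nat.lt_or_ge i 6241 with h | h1
  · exact checkRange_spec T _ _ chk48 i h1 h
  rcases Nat.lt_or_ge i 6365 with h | h1
  · exact checkRange_spec T _ _ chk49 i h1 h
  rcases Nat.lt_or_ge i 6471 with h | h1
  · exact checkRange_spec T _ _ chk50 i h1 h
  rcases Nat.lt_or_ge i 6595 with h | h1
  · exact checkRange_spec T _ _ chk51 i h1 h
  rcases Nat.lt_or_ge i 6712 with h | h1
  · exact checkRange_spec T _ _ chk52 i h1 h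
  rcases Nat.lt_or_ge i 6828 with h | h1
  · exact checkRange_spec T _ _ chk53 i h1 h
  rcases Nat.lt_or_ge i 6943 with h | h1
  · exact checkRange_spec T _ _ chk54 i h1 h
  rcases Nat.lt_or_ge i 7072 with h | h1
  · exact checkRange_spec T _ _ chk55 i h1 h
  rcases Nat.lt_or_ge i 7193 with h | h1
  · exact checkRange_spec T _ _ chk56 i h1 h
  rcases Nat.lt_or_ge i 7296 with h | h1
  · exact checkRange_spec T _ _ chk57 i h1 h
  rcases Nat.lt_or_ge i 7421 with h | h1
  · exact checkRange_spec T _ _ chk58 i h1 h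
  rcases Nat.lt_or_ge i 7526 with h | h1
  · exact checkRange_spec T _ _ chk59 i h1 h
  rcases Nat.lt_or_ge i 7641 with h | h1
  · exact checkRange_spec T _ _ chk60 i h1 h
  rcases Nat.lt_or_ge i 7764 with h | h1
  · exact checkRange_spec T _ _ chk61 i h1 h
  rcases Nat.lt_or_ge i 7870 with h | h1
  · exact checkRange_spec T _ _ chk62 i h1 h
  exact checkRange_spec T _ _ chk63 i h1 h2

lemma win20 : Win 20 ∅ ∅ := by
  have h := all_good T 7908 (by decide +kernel) all_checked 7907 (by norm_num)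
  have e : (T.get 7907).d = 20 ∧ (T.get 7907).c = 0 := by decide +kernel
  rw [e.1, e.2] at h
  exact win_of_good h

end Vale.Agent.P062
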