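import Vale.Agent.P062.Defs
import Vale.Agent.P062.Check

namespace Vale.Agent.P062

def HasCopy (M : Finset (ℤ × ℤ)) : Prop := ∃ A, IsCopy A ∧ A ⊆ (M : Set (ℤ × ℤ))

def Win : ℕ → Finset (ℤ × ℤ) → Finset (ℤ × ℤ) → Prop
  | 0, M, _ => HasCopy M
  | n + 1, M, B => ∃ x, x ∉ M ∧ x ∉ B ∧
      ∀ y, y ∉ insert x M → y ∉ B → Win n (insert x M) (insert y B)

lemma exists_free (M B : Finset (ℤ × ℤ)) : ∃ x, x ∉ M ∧ x ∉ B := by
  obtain ⟨x, hx⟩ := Infinite.exists_notMem_finset (M ∪ B)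
  exact ⟨x, fun h => hx (Finset.mem_union_left _ h), fun h => hx (Finset.mem_union_right _ h)⟩

lemma Win.succ : ∀ (n : ℕ) (M B : Finset (ℤ × ℤ)), Win n M B → Win (n + 1) M B
  | 0, M, B, h => by
    obtain ⟨x, h1, h2⟩ := exists_free M B
    obtain ⟨A, hA, hM⟩ := h
    refine ⟨x, h1, h2, fun y _ _ => ⟨A, hA, fun p hp => ?_⟩⟩
    simp only [Finset.coe_insert, Set.mem_insert_iff]
    exact Or.inr (hM hp)
  | n + 1, M, B, h => by
    obtain ⟨x, h1, h2, h3⟩ := h
    exact ⟨x, h1, h2, fun y a b => Win.succ n _ _ (h3 y a b)⟩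

lemma Win.mono {n m : ℕ} (h : n ≤ m) {M B : Finset (ℤ × ℤ)} (w : Win n M B) : Win m M B := by
  induction h with
  | refl => exact w
  | step _ ih => exact Win.succ _ _ _ ih

def Iso (g : ℤ × ℤ → ℤ × ℤ) : Prop :=
  ∃ (t : ℤ × ℤ) (a b c d : ℤ), SignedPerm a b c d ∧
    ∀ p, g p = (t.1 + (a * p.1 + b * p.2), t.2 + (c * p.1 + d * p.2))

lemma Iso.inj {g : ℤ × ℤ → ℤ × ℤ} (h : Iso g) : Function.Injective g := by
  obtain ⟨t, a, b, c, d, hs, hg⟩ := h
  intro p q e
  rw [hg, hg, Prod.mk.injEq] at e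
  obtain ⟨e1, e2⟩ := e
  rcases hs with ⟨rfl | rfl, rfl, rfl, rfl | rfl⟩ | ⟨rfl, rfl | rfl, rfl | rfl, rfl⟩ <;>
    (ext <;> omega)

lemma Iso.comp {g h : ℤ × ℤ → ℤ × ℤ} (hg : Iso g) (hh : Iso h) : Iso (g ∘ h) := by
  obtain ⟨t, a, b, c, d, hs, hg⟩ := hg
  obtain ⟨t', a', b', c', d', hs', hh⟩ := hh
  refine ⟨(t.1 + (a * t'.1 + b * t'.2), t.2 + (c * t'.1 + d * t'.2)), a * a' + b * c',
    a * b' + b * d', c * a' + d * c', c * b' + d * d', ?_, fun p => ?_⟩
  · rcases hs with ⟨rfl | rfl, rfl, rfl, rfl | rfl⟩ | ⟨rfl, rfl | rfl, rfl | rfl, rfl⟩ <;>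
      rcases hs' with ⟨rfl | rfl, rfl, rfl, rfl | rfl⟩ | ⟨rfl, rfl | rfl, rfl | rfl, rfl⟩ <;>
      simp [SignedPerm]
  · simp only [Function.comp, hg, hh, Prod.mk.injEq]
    constructor <;> ring

def cell (b : ℕ) : ℤ × ℤ := (((b % 32 : ℕ) : ℤ), ((b / 32 : ℕ) : ℤ))

lemma cell_inj : Function.Injective cell := by
  intro a b e
  simp only [cell, Prod.mk.injEq] at e
  omega

def Good (n C S : ℕ) : Prop :=
  ∀ g, Iso g → ∀ M B : Finset (ℤ × ℤ), (∀ b, C.testBit b = true → g (cell b) ∈ M) →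
    (∀ b, S.testBit b = true → g (cell b) ∉ B) → Win n M B

def sg (s : ℕ) : ℤ := if s = 0 then 1 else -1

def geo (sw sx sy tx ty : ℕ) (p : ℤ × ℤ) : ℤ × ℤ :=
  if sw = 0 then ((tx : ℤ) + sg sx * p.1, (ty : ℤ) + sg sy * p.2)
  else ((tx : ℤ) + sg sx * p.2, (ty : ℤ) + sg sy * p.1)

lemma sg_cases (s : ℕ) : sg s = 1 ∨ sg s = -1 := by
  unfold sg; split_ifs <;> simp

lemma geo_iso (sw sx sy tx ty : ℕ) : Iso (geo sw sx sy tx ty) := by
  by_cases h : sw = 0
  · refine ⟨(tx, ty), sg sx, 0, 0, sg sy, Or.inl ⟨sg_cases _, rfl, rfl, sg_cases _⟩, fun p => ?_⟩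
    simp [geo, h]
  · refine ⟨(tx, ty), 0, sg sx, sg sy, 0, Or.inr ⟨rfl, sg_cases _, sg_cases _, rfl⟩, fun p => ?_⟩
    simp [geo, h]

lemma brec {α : Type} (a b : α) (c : Bool) :
    @Bool.rec (fun _ => α) a b c = if c = true then b else a := by
  cases c <;> rfl

lemma ap_spec (s t u : ℕ) (h : ap s t u ≤ 31) : ((ap s t u : ℕ) : ℤ) = t + sg s * u := by
  unfold ap at *
  unfold sg
  simp only [brec, Nat.beq_eq, Nat.ble_eq, Nat.add_eq, Nat.sub_eq] at *
  split_ifs at * <;> omega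

lemma pos_spec (x y : ℕ) (h : pos x y ≠ 1023) : x ≤ 31 ∧ y ≤ 31 ∧ cell (pos x y) = ((x : ℤ), (y : ℤ)) := by
  unfold pos at *
  simp only [brec, Nat.ble_eq, Nat.add_eq, Nat.mul_eq] at *
  split_ifs at * with h1 h2
  · refine ⟨h1, by omega, ?_⟩
    simp only [cell, Prod.mk.injEq]
    omega
  · exact absurd rfl h
  · exact absurd rfl h

lemma tgt_spec (sw sx sy tx ty b : ℕ) (h : tgt sw sx sy tx ty b ≠ 1023) :
    cell (tgt sw sx sy tx ty b) = geo sw sx sy tx ty (cell b) := by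
  unfold tgt at *
  unfold geo
  simp only [brec, Nat.beq_eq] at *
  split_ifs at * with h1
  · obtain ⟨a, b, c⟩ := pos_spec _ _ h
    rw [c, ap_spec _ _ _ a, ap_spec _ _ _ b]; rfl
  · obtain ⟨a, b, c⟩ := pos_spec _ _ h
    rw [c, ap_spec _ _ _ a, ap_spec _ _ _ b]; rfl

lemma tb_one (k b : ℕ) : (Nat.shiftLeft 1 k).testBit b = true ↔ b = k := by
  have : Nat.shiftLeft 1 k = 2 ^ k := by
    show 1 <<< k = 2 ^ k
    rw [Nat.shiftLeft_eq, one_mul]
  rw [this, Nat.testBit_two_pow]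
  simp [eq_comm]

lemma img_spec (f : ℕ → ℕ) : ∀ (fuel m acc : ℕ), (img f fuel m acc).testBit 1023 = false →
    (∀ b, acc.testBit b = true → (img f fuel m acc).testBit b = true) ∧
    (∀ b, m.testBit b = true → (img f fuel m acc).testBit (f b) = true) := by
  intro fuel
  induction fuel with
  | zero =>
    intro m acc h
    have : (img f 0 m acc).testBit 1023 = true := (tb_one 1023 1023).2 rfl
    rw [this] at h; exact absurd h (by simp)
  | succ k ih =>
    intro m acc h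
    have e : img f (k + 1) m acc = if m = 0 then acc else
        img f k (m ^^^ (Nat.shiftLeft 1 (low m))) (acc ||| (Nat.shiftLeft 1 (f (low m)))) := by
      refine (brec _ _ (Nat.beq m 0)).trans ?_
      by_cases h0 : m = 0
      · rw [if_pos h0, if_pos (Nat.beq_eq ▸ h0)]
      · rw [if_neg h0, if_neg (Nat.beq_eq ▸ h0)]; rfl
    rw [e] at h ⊢
    split_ifs at h ⊢ with hm
    · subst hm
      exact ⟨fun b hb => hb, fun b hb => by simp at hb⟩
    · obtain ⟨h1, h2⟩ := ih _ _ h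
      refine ⟨fun b hb => h1 b (by rw [Nat.testBit_lor, hb]; rfl), fun b hb => ?_⟩
      by_cases hb' : b = low m
      · apply h1
        rw [Nat.testBit_lor, (tb_one _ _).2 (by rw [hb'])]
        simp
      · apply h2
        have : (Nat.shiftLeft 1 (low m)).testBit b = false := by
          rw [Bool.eq_false_iff]; exact fun h => hb' ((tb_one _ _).1 h)
        rw [Nat.testBit_xor, hb, this]; rfl

lemma sub_spec {a b : ℕ} (h : sub a b = true) (k : ℕ) (hk : a.testBit k = true) :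
    b.testBit k = true := by
  unfold sub at h
  have h' : a &&& b = a := Nat.eq_of_beq_eq_true h
  have : (a &&& b).testBit k = true := by rw [h']; exact hk
  rw [Nat.testBit_land] at this
  simp only [Bool.and_eq_true] at this
  exact this.2

def rgeo (r : ℕ) : ℤ × ℤ → ℤ × ℤ :=
  geo (Nat.mod (Nat.shiftRight r 14) 2) (Nat.mod (Nat.shiftRight r 15) 2)
    (Nat.mod (Nat.shiftRight r 16) 2) (Nat.mod (Nat.shiftRight r 17) 32)
    (Nat.mod (Nat.shiftRight r 22) 32)

lemma img_geo (r m s : ℕ) (hs : s.testBit 1023 = false)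
    (h : sub (img (rmap r) 512 m 0) s = true) (b : ℕ) (hb : m.testBit b = true) :
    ∃ b', (img (rmap r) 512 m 0).testBit b' = true ∧ cell b' = rgeo r (cell b) := by
  have h0 : (img (rmap r) 512 m 0).testBit 1023 = false := by
    rw [Bool.eq_false_iff]; intro h'
    rw [sub_spec h _ h'] at hs; exact absurd hs (by simp)
  have h1 := (img_spec _ _ _ _ h0).2 b hb
  refine ⟨_, h1, tgt_spec _ _ _ _ _ _ fun e => ?_⟩
  have e' : rmap r b = 1023 := e
  rw [e', h0] at h1; exact absurd h1 (by simp)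

lemma loop_spec (T : Trie) (i d c s : ℕ) (hs : s.testBit 1023 = false)
    (hc : c.testBit 1023 = false)
    (IH : ∀ j < i, Good (T.get j).d (T.get j).c (T.get j).s)
    (g : ℤ × ℤ → ℤ × ℤ) (hg : Iso g) (M B : Finset (ℤ × ℤ))
    (hM : ∀ b, c.testBit b = true → g (cell b) ∈ M)
    (hB : ∀ b, s.testBit b = true → g (cell b) ∉ B) (y : ℤ × ℤ) (hy : y ∉ M) :
    ∀ (fuel r I : ℕ), loop T i d c s fuel r I = true →
      (∀ b, s.testBit b = true → g (cell b) = y → I.testBit b = true) →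
      (r ≠ 0 ∨ ∃ b, s.testBit b = true ∧ g (cell b) = y) →
      ∃ n < d, Win n M (insert y B) := by
  intro fuel
  induction fuel with
  | zero => intro r I h; exact absurd h (by simp [loop])
  | succ k ih =>
    intro r I h hI hr
    have e : loop T i d c s (k + 1) r I = if r = 0 then sub I c else
        (stepOk i d c s r (T.get (Nat.mod r 16384))
          (img (rmap r) 512 (T.get (Nat.mod r 16384)).s 0) &&
        loop T i d c s k (Nat.shiftRight r 28)
          (I &&& (img (rmap r) 512 (T.get (Nat.mod r 16384)).s 0))) := by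
      refine (brec _ _ (Nat.beq r 0)).trans ?_
      by_cases h0 : r = 0
      · rw [if_pos h0, if_pos (Nat.beq_eq ▸ h0)]
      · rw [if_neg h0, if_neg (Nat.beq_eq ▸ h0)]; rfl
    rw [e] at h
    split_ifs at h with h0
    · rcases hr with hr | ⟨b, hb, hb'⟩
      · exact absurd h0 hr
      · exact absurd (hb' ▸ hM b (sub_spec h b (hI b hb hb'))) hy
    · simp only [stepOk, Bool.and_eq_true, Nat.blt_eq] at h
      obtain ⟨⟨h1, h2, h3, h4⟩, h5⟩ := h
      by_cases hy' : ∃ b, (img (rmap r) 512 (T.get (Nat.mod r 16384)).s 0).testBit b = true ∧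
          g (cell b) = y
      · obtain ⟨b, hb, hb'⟩ := hy'
        refine ih _ _ h5 (fun b' h1' h2' => ?_) (Or.inr ⟨b, sub_spec h3 b hb, hb'⟩)
        have : b' = b := cell_inj (hg.inj (h2'.trans hb'.symm))
        rw [Nat.testBit_land, hI b' h1' h2', this, hb]; rfl
      · refine ⟨_, h2, IH _ h1 (g ∘ rgeo r) (hg.comp (geo_iso _ _ _ _ _)) M _ (fun b hb => ?_)
          (fun b hb => ?_)⟩
        · obtain ⟨b', e1, e2⟩ := img_geo r _ c hc h4 b hb
          simp only [Function.comp, ← e2]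
          exact hM _ (sub_spec h4 _ e1)
        · obtain ⟨b', e1, e2⟩ := img_geo r _ s hs h3 b hb
          simp only [Function.comp, ← e2, Finset.mem_insert, not_or]
          exact ⟨fun e => hy' ⟨b', e1, e⟩, hB _ (sub_spec h3 _ e1)⟩

lemma checkE_spec (T : Trie) (i : ℕ) (e : Ent) (h : checkE T i e = true)
    (IH : ∀ j < i, Good (T.get j).d (T.get j).c (T.get j).s) : Good e.d e.c e.s := by
  simp only [checkE, Bool.and_eq_true, Nat.blt_eq] at h
  obtain ⟨h1, h2, h3, h4, h5⟩ := h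
  have hs : e.s.testBit 1023 = false := by
    apply Nat.testBit_lt_two_pow
    have : Nat.shiftLeft 1 1023 = 2 ^ 1023 := by
      show 1 <<< 1023 = 2 ^ 1023
      rw [Nat.shiftLeft_eq, one_mul]
    exact this ▸ h3
  obtain ⟨m, hm⟩ : ∃ m, m = Nat.mod e.j 1024 := ⟨_, rfl⟩
  rw [← hm] at h2 h5
  have hms : e.s.testBit m = true := sub_spec h2 m ((tb_one _ _).2 rfl)
  have hc' : ∀ b, (Nat.lor e.c (Nat.shiftLeft 1 m)).testBit b = true →
      e.c.testBit b = true ∨ b = m := by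
    intro b hb
    have : (e.c ||| (Nat.shiftLeft 1 m)).testBit b = true := hb
    rw [Nat.testBit_lor, Bool.or_eq_true, tb_one] at this
    exact this
  have hc : (Nat.lor e.c (Nat.shiftLeft 1 m)).testBit 1023 = false := by
    rw [Bool.eq_false_iff]; intro h
    rcases hc' _ h with h | h
    · rw [sub_spec h4 _ h] at hs; exact absurd hs (by simp)
    · rw [← h, hs] at hms; exact absurd hms (by simp)
  have hr : Nat.shiftRight e.j 10 ≠ 0 := by
    show e.j >>> 10 ≠ 0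
    rw [Nat.shiftRight_eq_div_pow]
    omega
  intro g hg M B hM hB
  obtain ⟨x, hx1, hx2, hx3⟩ : ∃ x, x ∉ M ∧ x ∉ B ∧ g (cell m) ∈ insert x M := by
    by_cases hm : g (cell m) ∈ M
    · obtain ⟨x, a, b⟩ := exists_free M B
      exact ⟨x, a, b, Finset.mem_insert_of_mem hm⟩
    · exact ⟨_, hm, hB m hms, Finset.mem_insert_self _ _⟩
  have key : ∀ y, y ∉ insert x M → ∃ n < e.d, Win n (insert x M) (insert y B) := by
    intro y hy
    refine loop_spec T i e.d _ e.s hs hc IH g hg (insert x M) B (fun b hb => ?_) hB y hy _ _ _ h5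
      (fun b hb _ => hb) (Or.inl hr)
    rcases hc' b hb with h | h
    · exact Finset.mem_insert_of_mem (hM b h)
    · rw [h]; exact hx3
  obtain ⟨y0, hy0, _⟩ := exists_free (insert x M) B
  obtain ⟨n0, hn0, _⟩ := key y0 hy0
  obtain ⟨d, hd⟩ : ∃ d, e.d = d + 1 := ⟨e.d - 1, by omega⟩
  rw [hd]
  refine ⟨x, hx1, hx2, fun y hy _ => ?_⟩
  obtain ⟨n, hn, w⟩ := key y hy
  exact Win.mono (by omega) w

lemma checkRange_spec (T : Trie) (a : ℕ) : ∀ n, checkRange T a n = true →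
    ∀ i, a ≤ i → i < a + n → checkE T i (T.get i) = true := by
  intro n
  induction n with
  | zero => intro _ i h1 h2; omega
  | succ k ih =>
    intro h i h1 h2
    have e : checkRange T a (k + 1) =
      (checkE T (a + k) (T.get (a + k)) && checkRange T a k) := rfl
    rw [e, Bool.and_eq_true] at h
    by_cases hi : i = a + k
    · rw [hi]; exact h.1
    · exact ih h.2 i h1 (by omega)

lemma good_base (s : ℕ) : Good 0 103079215119 s := by
  intro g hg M B hM _
  obtain ⟨t, a, b, c, d, hs, hg⟩ := hg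
  refine ⟨_, ⟨t, a, b, c, d, hs, rfl⟩, ?_⟩
  rintro _ ⟨p, hp, rfl⟩
  have h0 := hM 0 (by decide)
  have h1 := hM 1 (by decide)
  have h2 := hM 2 (by decide)
  have h3 := hM 3 (by decide)
  have h4 := hM 35 (by decide)
  have h5 := hM 36 (by decide)
  simp only [← hg]
  simp only [snaky, Set.mem_insert_iff, Set.mem_singleton_iff] at hp
  rcases hp with rfl | rfl | rfl | rfl | rfl | rfl
  · exact h0
  · exact h1
  · exact h2
  · exact h3
  · exact h4
  · exact h5

lemma all_good (T : Trie) (N : ℕ) (h0 : (T.get 0).d = 0 ∧ (T.get 0).c = 103079215119)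
    (h : ∀ i, 1 ≤ i → i < N → checkE T i (T.get i) = true) :
    ∀ i < N, Good (T.get i).d (T.get i).c (T.get i).s := by
  intro i
  induction i using Nat.strong_induction_on with
  | _ i ih =>
    intro hi
    by_cases h1 : i = 0
    · subst h1; rw [h0.1, h0.2]; exact good_base _
    · exact checkE_spec T i _ (h i (by omega) hi) (fun j hj => ih j hj (by omega))

lemma win_of_good {n s : ℕ} (h : Good n 0 s) : Win n ∅ ∅ := by
  refine h id ⟨(0, 0), 1, 0, 0, 1, Or.inl ⟨Or.inl rfl, rfl, rfl, Or.inl rfl⟩, fun p => by simp⟩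
    ∅ ∅ (fun b hb => by simp at hb) (fun b _ => by simp)

lemma mm_zero (σ : List (ℤ × ℤ) → ℤ × ℤ) (β : ℕ → ℤ × ℤ) : makerMove σ β 0 = σ [] := rfl

lemma mm_succ (σ : List (ℤ × ℤ) → ℤ × ℤ) (β : ℕ → ℤ × ℤ) (k : ℕ) :
    makerMove σ β (k + 1) = makerMove (fun l => σ (β 0 :: l)) (fun i => β (i + 1)) k := by
  simp only [makerMove, List.range_succ_eq_map, List.map_cons, List.map_map]
  rfl

lemma strat : ∀ (n : ℕ) (M B : Finset (ℤ × ℤ)), Win n M B →
    ∃ σ : List (ℤ × ℤ) → ℤ × ℤ, ∀ β : ℕ → ℤ × ℤ,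
      (∀ k, k + 1 < n → β k ∉ M ∧ β k ∉ B ∧ (∀ i ≤ k, β k ≠ makerMove σ β i) ∧
        ∀ i < k, β k ≠ β i) →
      (∀ k < n, makerMove σ β k ∉ M ∧ makerMove σ β k ∉ B ∧
        ∀ i < k, makerMove σ β k ≠ makerMove σ β i ∧ makerMove σ β k ≠ β i) ∧
      ∃ A, IsCopy A ∧ ∀ p ∈ A, p ∈ M ∨ ∃ k < n, makerMove σ β k = p := by
  intro n
  induction n with
  | zero =>
    intro M B h
    obtain ⟨A, hA, hM⟩ := h
    exact ⟨fun _ => (0, 0), fun β _ => ⟨fun k hk => by omega, A, hA, fun p hp => Or.inl (hM hp)⟩⟩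
  | succ n ih =>
    intro M B h
    obtain ⟨x, h1, h2, h3⟩ := h
    obtain ⟨y0, hy1, hy2⟩ := exists_free (insert x M) B
    classical
    obtain ⟨ρ, hρ⟩ : ∃ ρ : ℤ × ℤ → ℤ × ℤ, ∀ y, (ρ y ∉ insert x M ∧ ρ y ∉ B) ∧
        (y ∉ insert x M ∧ y ∉ B → ρ y = y) := by
      refine ⟨fun y => if y ∉ insert x M ∧ y ∉ B then y else y0, fun y => ⟨?_, fun h => if_pos h⟩⟩
      dsimp only
      split_ifs with h
      · exact h
      · exact ⟨hy1, hy2⟩
    choose τ hτ using fun y => ih _ _ (h3 (ρ y) (hρ y).1.1 (hρ y).1.2)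
    obtain ⟨σ, hσ0, hσ1⟩ : ∃ σ : List (ℤ × ℤ) → ℤ × ℤ, σ [] = x ∧
        ∀ y, (fun l => σ (y :: l)) = τ y :=
      ⟨fun l => match l with
        | [] => x
        | y :: l => τ y l, rfl, fun _ => rfl⟩
    refine ⟨σ, fun β hβ => ?_⟩
    have m0 : makerMove σ β 0 = x := hσ0
    have m1 : ∀ k, makerMove σ β (k + 1) = makerMove (τ (β 0)) (fun i => β (i + 1)) k := by
      intro k; rw [mm_succ, hσ1]
    have hb0 : 0 < n → ρ (β 0) = β 0 := by
      intro hn
      obtain ⟨a, b, c, _⟩ := hβ 0 (by omega)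
      apply (hρ _).2
      refine ⟨?_, b⟩
      rw [Finset.mem_insert, not_or]
      exact ⟨m0 ▸ c 0 le_rfl, a⟩
    obtain ⟨g1, A, hA, g2⟩ := hτ (β 0) (fun i => β (i + 1)) (by
      intro k hk
      obtain ⟨a, b, c, d⟩ := hβ (k + 1) (by omega)
      rw [hb0 (by omega)]
      simp only [Finset.mem_insert, not_or]
      refine ⟨⟨m0 ▸ c 0 (by omega), a⟩, ⟨d 0 (by omega), b⟩, fun i hi => ?_,
        fun i hi => d (i + 1) (by omega)⟩
      rw [← m1]; exact c (i + 1) (by omega))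
    refine ⟨fun k hk => ?_, A, hA, fun p hp => ?_⟩
    · rcases k with _ | k
      · rw [m0]; exact ⟨h1, h2, fun i hi => by omega⟩
      · obtain ⟨a, b, c⟩ := g1 k (by omega)
        rw [hb0 (by omega)] at b
        rw [← m1] at a b
        simp only [Finset.mem_insert, not_or] at a b
        refine ⟨a.2, b.2, fun i hi => ?_⟩
        rcases i with _ | i
        · exact ⟨m0 ▸ a.1, b.1⟩
        · rw [m1, m1]; exact c i (by omega)
    · rcases g2 p hp with h | ⟨k, hk, h⟩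
      · rcases Finset.mem_insert.1 h with h | h
        · exact Or.inr ⟨0, by omega, by rw [m0, h]⟩
        · exact Or.inl h
      · exact Or.inr ⟨k + 1, by omega, by rw [m1, h]⟩

end Vale.Agent.P062
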