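import Vale.Agent.P062.Data0
import Vale.Agent.P062.Data1
import Vale.Agent.P062.Data2
import Vale.Agent.P062.Data3
import Vale.Agent.P062.Data4
import Vale.Agent.P062.Data5
import Vale.Agent.P062.Data6
import Vale.Agent.P062.Data7

namespace Vale.Agent.P062

noncomputable def T : Trie :=
(Trie.node (Trie.node (Trie.node (Trie.node (Trie.node (Trie.node t0 t32) (Trie.node t16 t48)) (Trie.node (Trie.node t8 t40) (Trie.node t24 t56))) (Trie.node (Trie.node (Trie.node t4 t36) (Trie.node t20 t52)) (Trie.node (Trie.node t12 t44) (Trie.node t28 t60)))) (Trie.node (Trie.node (Trie.node (Trie.node t2 t34) (Trie.node t18 t50)) (Trie.node (Trie.node t10 t42) (Trie.node t26 t58))) (Trie.node (Trie.node (Trie.node t6 t38) (Trie.node t22 t54)) (Trie.node (Trie.node t14 t46) (Trie.node t30 t62))))) (Trie.node (Trie.node (Trie.node (Trie.node (Trie.node t1 t33) (Trie.node t17 t49)) (Trie.node (Trie.node t9 t41) (Trie.node t25 t57))) (Trie.node (Trie.node (Trie.node t5 t37) (Trie.node t21 t53)) (Trie.node (Trie.node t13 t45) (Trie.node t29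 t61)))) (Trie.node (Trie.node (Trie.node (Trie.node t3 t35) (Trie.node t19 t51)) (Trie.node (Trie.node t11 t43) (Trie.node t27 t59))) (Trie.node (Trie.node (Trie.node t7 t39) (Trie.node t23 t55)) (Trie.node (Trie.node t15 t47) (Trie.node t31 t63))))))

end Vale.Agent.P062
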